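import Mathlib
import Vale.Agent.Lib.P243.Defs
import Vale.Agent.Lib.P243.Cap.Main
import Vale.Agent.Lib.P243.Cop.Main
import Vale.Agent.Lib.P243.Symm.Main
import Vale.Agent.Lib.P243.Soft.Main
import Vale.Agent.Lib.P243.Edge.Main

/-!
P243 (Bang's half-area cylinder covering problem): six lower bounds for one and the same covering.

There is an absolute `ε > 0` such that the following holds.  Let a convex body `K` in Euclidean 3-space be
covered by `m` cylinders `Bᵢ + ℝ uᵢ`, let `βᵢ = |Bᵢ| / |π_{uᵢ^⊥} K|` and `R = ∑ βᵢ`.  Then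
* `R ≥ 1/3 + ε`;
* `R ≥ 1/3 + (2/3) ∑ (min 1 βᵢ)^{3/2}`;
* `R ≥ m t` for every `t ∈ [0,1]` with `m (3 t - 2 t^{3/2}) ≤ 1`;
* if all `uᵢ` are orthogonal to one unit vector, then `∑ |Bᵢ| ≥ A_min(K) / 2`;
* if `K = -K`, then `R ≥ 5/12`;
* if `K` is a tetrahedron and every `uᵢ` is parallel to one of its edges, then `R ≥ 1/2` and
  `∑ |Bᵢ| ≥ A_min(K) / 2`.
-/

namespace Vale.Agent.Results.P243.A0_SixBounds

open MeasureTheory Set Vale.Agent.Lib.P243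

theorem result : ∃ ε : ℝ, 0 < ε ∧ ∀ (K : Set Space), Convex ℝ K → IsCompact K →
    (interior K).Nonempty → ∀ (m : ℕ) (u : Fin m → Space), (∀ i, ‖u i‖ = 1) →
    ∀ (B : ∀ i, Set (Plane (u i))), K ⊆ ⋃ i, cylinder (u i) (B i) →
    (ENNReal.ofReal (1 / 3 + ε) ≤ ∑ i, area (u i) (B i) / area (u i) (shadow K (u i))) ∧
    (1 / 3 + 2 / 3 * ∑ i, (min 1 (area (u i) (B i) / area (u i) (shadow K (u i)))) ^ (3 / 2 : ℝ) ≤
      ∑ i, area (u i) (B i) / area (u i) (shadow K (u i))) ∧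
    (∀ t : ℝ, 0 ≤ t → t ≤ 1 → (m : ℝ) * (3 * t - 2 * t ^ (3 / 2 : ℝ)) ≤ 1 →
      ENNReal.ofReal (m * t) ≤ ∑ i, area (u i) (B i) / area (u i) (shadow K (u i))) ∧
    ((∃ w : Space, ‖w‖ = 1 ∧ ∀ i, inner ℝ (u i) w = 0) →
      1 / 2 * (⨅ (v : Space) (_ : ‖v‖ = 1), area v (shadow K v)) ≤ ∑ i, area (u i) (B i)) ∧
    ((∀ x ∈ K, -x ∈ K) →
      5 / 12 ≤ ∑ i, area (u i) (B i) / area (u i) (shadow K (u i))) ∧
    ((∃ a : Fin 4 → Space, AffineIndependent ℝ a ∧ K = convexHull ℝ (Set.range a) ∧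
        ∀ i, ∃ j k : Fin 4, ∃ c : ℝ, u i = c • (a j - a k)) →
      (1 / 2 : ENNReal) ≤ ∑ i, area (u i) (B i) / area (u i) (shadow K (u i)) ∧
      1 / 2 * (⨅ (v : Space) (_ : ‖v‖ = 1), area v (shadow K v)) ≤ ∑ i, area (u i) (B i)) := by
  obtain ⟨ε, hε, h⟩ := Vale.Agent.Lib.P243.Soft.soft_main
  refine ⟨ε, hε, fun K hconv hcomp hint m u hu B hcov => ?_⟩
  have hA := Vale.Agent.Lib.P243.Cap.all_coverings K hconv hcomp hint m u hu B hcov
  refine ⟨h K hconv hcomp hint m u hu B hcov, hA.1, hA.2.1, ?_, ?_, ?_⟩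
  · rintro ⟨w, hw, hperp⟩
    exact Vale.Agent.Lib.P243.Cop.coplanar_axes K hconv hcomp hint w hw m u hu hperp B hcov
  · intro hsymm
    exact Vale.Agent.Lib.P243.Symm.centrally_symmetric K hconv hcomp hint hsymm m u hu B hcov
  · rintro ⟨a, ha, hK, hpar⟩
    have htop : affineSpan ℝ (Set.range a) = ⊤ :=
      ha.affineSpan_eq_top_iff_card_eq_finrank_add_one.2 (by simp)
    let b : AffineBasis (Fin 4) ℝ Space := ⟨a, ha, htop⟩
    have hT : Vale.Agent.Lib.P243.Edge.tet b = K := by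
      rw [hK]; exact Vale.Agent.Lib.P243.Edge.tet_eq b
    rw [← hT] at hcov ⊢
    exact ⟨Vale.Agent.Lib.P243.Edge.edge_parallel b m u hu hpar B hcov,
      Vale.Agent.Lib.P243.Edge.edge_parallel_abs b m u hu hpar B hcov⟩

end Vale.Agent.Results.P243.A0_SixBounds
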