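import Mathlib
import Vale.Agent.Lib.P243.Defs
import Vale.Agent.Lib.P243.Edge.Main

/-!
P243 (Bang's half-area cylinder covering problem): coverings of a tetrahedron by cylinders whose axes
are parallel to edges of the tetrahedron.

If a (nondegenerate) tetrahedron `T` in Euclidean 3-space is covered by finitely many cylinders
`Bᵢ + ℝ uᵢ`, each axis `uᵢ` being parallel to some edge of `T`, then
`∑ |Bᵢ| / |π_{uᵢ^⊥} T| ≥ 1/2` and `∑ |Bᵢ| ≥ A_min(T) / 2`.
-/

namespace Vale.Agent.Results.P243.AEdgeParallel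

open MeasureTheory Set Vale.Agent.Lib.P243

theorem result (a : Fin 4 → Space) (ha : AffineIndependent ℝ a) (m : ℕ) (u : Fin m → Space)
    (hu : ∀ i, ‖u i‖ = 1) (hpar : ∀ i, ∃ j k : Fin 4, ∃ c : ℝ, u i = c • (a j - a k))
    (B : ∀ i, Set (Plane (u i)))
    (hcov : convexHull ℝ (Set.range a) ⊆ ⋃ i, cylinder (u i) (B i)) :
    (1 / 2 : ENNReal) ≤
        ∑ i, area (u i) (B i) / area (u i) (shadow (convexHull ℝ (Set.range a)) (u i)) ∧
      1 / 2 * (⨅ (v : Space) (_ : ‖v‖ = 1), area v (shadow (convexHull ℝ (Set.range a)) v)) ≤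
        ∑ i, area (u i) (B i) := by
  have htop : affineSpan ℝ (Set.range a) = ⊤ :=
    ha.affineSpan_eq_top_iff_card_eq_finrank_add_one.2 (by simp)
  let b : AffineBasis (Fin 4) ℝ Space := ⟨a, ha, htop⟩
  have hb : ∀ i, b i = a i := fun _ => rfl
  have hT : Vale.Agent.Lib.P243.Edge.tet b = convexHull ℝ (Set.range a) :=
    Vale.Agent.Lib.P243.Edge.tet_eq b
  rw [← hT] at hcov ⊢
  exact ⟨Vale.Agent.Lib.P243.Edge.edge_parallel b m u hu hpar B hcov,
    Vale.Agent.Lib.P243.Edge.edge_parallel_abs b m u hu hpar B hcov⟩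

end Vale.Agent.Results.P243.AEdgeParallel
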