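import Mathlib
import Vale.Agent.Lib.P243.Defs
import Vale.Agent.Lib.P243.Soft.Main

/-!
P243 (Bang's half-area cylinder covering problem): the constant `1/3` of Bezdek and Litvak is not sharp.

There is an absolute constant `ε > 0` such that for every convex body `K` in Euclidean 3-space and every
covering of `K` by finitely many cylinders `Bᵢ + ℝ uᵢ` the directionwise relative area
`∑ |Bᵢ| / |π_{uᵢ^⊥} K|` is at least `1/3 + ε`.  In the notation of the problem: `r_3 ≥ 1/3 + ε > 1/3`.
-/

namespace Vale.Agent.Results.P243.AbsoluteGain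

open MeasureTheory Set Vale.Agent.Lib.P243

theorem result : ∃ ε : ℝ, 0 < ε ∧ ∀ (K : Set Space), Convex ℝ K → IsCompact K →
    (interior K).Nonempty → ∀ (m : ℕ) (u : Fin m → Space), (∀ i, ‖u i‖ = 1) →
    ∀ (B : ∀ i, Set (Plane (u i))), K ⊆ ⋃ i, cylinder (u i) (B i) →
    ENNReal.ofReal (1 / 3 + ε) ≤ ∑ i, area (u i) (B i) / area (u i) (shadow K (u i)) :=
  Vale.Agent.Lib.P243.Soft.soft_main

end Vale.Agent.Results.P243.AbsoluteGain
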