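import Mathlib
import Vale.Agent.Lib.P243.Defs
import Vale.Agent.Lib.P243.Cop.Main

/-!
P243 (Bang's half-area cylinder covering problem): coverings whose axes are parallel to one plane.

If a convex body `K` in Euclidean 3-space is covered by finitely many cylinders `Bᵢ + ℝ uᵢ` all of whose axes
`uᵢ` are orthogonal to one unit vector `w`, then `∑ |Bᵢ| ≥ A_min(K) / 2`.
-/

namespace Vale.Agent.Results.P243.CoplanarAxes

open MeasureTheory Set Vale.Agent.Lib.P243

theorem result (K : Set Space) (hconv : Convex ℝ K) (hcomp : IsCompact K)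
    (hint : (interior K).Nonempty) (w : Space) (hw : ‖w‖ = 1) (m : ℕ) (u : Fin m → Space)
    (hu : ∀ i, ‖u i‖ = 1) (hperp : ∀ i, inner ℝ (u i) w = 0) (B : ∀ i, Set (Plane (u i)))
    (hcov : K ⊆ ⋃ i, cylinder (u i) (B i)) :
    1 / 2 * (⨅ (v : Space) (_ : ‖v‖ = 1), area v (shadow K v)) ≤ ∑ i, area (u i) (B i) :=
  Vale.Agent.Lib.P243.Cop.coplanar_axes K hconv hcomp hint w hw m u hu hperp B hcov

end Vale.Agent.Results.P243.CoplanarAxes
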