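import Mathlib
import Vale.Agent.Lib.P243.Defs
import Vale.Agent.Lib.P243.Bridge

/-!
P243 (Bang's half-area cylinder covering problem): the case of two cylinders.

If a convex body `K` in Euclidean 3-space is covered by two cylinders `B₁ + ℝ u₁` and `B₂ + ℝ u₂`
(`uᵢ` unit vectors, `Bᵢ` an arbitrary subset of the plane `uᵢ^⊥`, areas are Lebesgue outer measures in
that plane), then the directionwise relative area is at least `1/2`, and hence
`|B₁| + |B₂| ≥ A_min(K) / 2`.  The constant `1/2` is attained by Bang's covering of the regular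
tetrahedron, which uses two cylinders.
-/

namespace Vale.Agent.Results.P243.TwoCylinders

open MeasureTheory Set Vale.Agent.Lib.P243

theorem result (K : Set Space) (hconv : Convex ℝ K) (hcomp : IsCompact K)
    (hint : (interior K).Nonempty) (u₁ u₂ : Space) (hu₁ : ‖u₁‖ = 1) (hu₂ : ‖u₂‖ = 1)
    (B₁ : Set (Plane u₁)) (B₂ : Set (Plane u₂))
    (hcov : K ⊆ cylinder u₁ B₁ ∪ cylinder u₂ B₂) :
    1 / 2 ≤ area u₁ B₁ / area u₁ (shadow K u₁) + area u₂ B₂ / area u₂ (shadow K u₂) ∧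
    1 / 2 * (⨅ (u : Space) (_ : ‖u‖ = 1), area u (shadow K u)) ≤ area u₁ B₁ + area u₂ B₂ := by
  have h1 : u₁ ≠ 0 := by
    rintro rfl
    simp at hu₁
  have h2 : u₂ ≠ 0 := by
    rintro rfl
    simp at hu₂
  have main := two_cyl' hconv hcomp hint u₁ u₂ h1 h2 B₁ B₂ hcov
  refine ⟨main, ?_⟩
  set A := ⨅ (u : Space) (_ : ‖u‖ = 1), area u (shadow K u) with hA
  set V₁ := area u₁ (shadow K u₁) with hV₁
  set V₂ := area u₂ (shadow K u₂) with hV₂
  have hA1 : A ≤ V₁ := iInf₂_le u₁ hu₁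
  have hA2 : A ≤ V₂ := iInf₂_le u₂ hu₂
  have p1 : V₁ ≠ 0 := (area_shadow_pos hint u₁).ne'
  have p2 : V₂ ≠ 0 := (area_shadow_pos hint u₂).ne'
  have f1 : V₁ ≠ ⊤ := area_shadow_ne_top hcomp u₁
  have f2 : V₂ ≠ ⊤ := area_shadow_ne_top hcomp u₂
  calc 1 / 2 * A ≤ (area u₁ B₁ / V₁ + area u₂ B₂ / V₂) * A := by gcongr
    _ = area u₁ B₁ / V₁ * A + area u₂ B₂ / V₂ * A := add_mul _ _ _
    _ ≤ area u₁ B₁ / V₁ * V₁ + area u₂ B₂ / V₂ * V₂ := by gcongr
    _ = area u₁ B₁ + area u₂ B₂ := by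
        rw [ENNReal.div_mul_cancel p1 f1, ENNReal.div_mul_cancel p2 f2]

end Vale.Agent.Results.P243.TwoCylinders
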