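import Mathlib
import Vale.Agent.Lib.P243.Defs
import Vale.Agent.Lib.P243.Cap.Main

/-!
P243 (Bang's half-area cylinder covering problem): an inequality for all finite coverings.

Let a convex body `K` in Euclidean 3-space be covered by `m` cylinders `Bᵢ + ℝ uᵢ` and let
`βᵢ = |Bᵢ| / |π_{uᵢ^⊥} K|` be the relative base areas.  Then `∑ (3 bᵢ - 2 bᵢ^{3/2}) ≥ 1` for `bᵢ = min 1 βᵢ`.
Stated below in three forms:
* `R = ∑ βᵢ ≥ 1/3 + (2/3) ∑ (min 1 βᵢ)^{3/2}`;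
* `R ≥ m t` for every `t ∈ [0,1]` with `m (3 t - 2 t^{3/2}) ≤ 1`;
* `R ≥ 1/3 + 2 / (9 √(3 m))`.
-/

namespace Vale.Agent.Results.P243.ZAllCoverings

open MeasureTheory Set Vale.Agent.Lib.P243

theorem result (K : Set Space) (hconv : Convex ℝ K) (hcomp : IsCompact K)
    (hint : (interior K).Nonempty) (m : ℕ) (u : Fin m → Space) (hu : ∀ i, ‖u i‖ = 1)
    (B : ∀ i, Set (Plane (u i))) (hcov : K ⊆ ⋃ i, cylinder (u i) (B i)) :
    (1 / 3 + 2 / 3 * ∑ i, (min 1 (area (u i) (B i) / area (u i) (shadow K (u i)))) ^ (3 / 2 : ℝ) ≤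
      ∑ i, area (u i) (B i) / area (u i) (shadow K (u i))) ∧
    (∀ t : ℝ, 0 ≤ t → t ≤ 1 → (m : ℝ) * (3 * t - 2 * t ^ (3 / 2 : ℝ)) ≤ 1 →
      ENNReal.ofReal (m * t) ≤ ∑ i, area (u i) (B i) / area (u i) (shadow K (u i))) ∧
    (ENNReal.ofReal (1 / 3 + 2 / (9 * √(3 * m))) ≤
      ∑ i, area (u i) (B i) / area (u i) (shadow K (u i))) :=
  Vale.Agent.Lib.P243.Cap.all_coverings K hconv hcomp hint m u hu B hcov

end Vale.Agent.Results.P243.ZAllCoverings
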