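import Mathlib
import Vale.Agent.Lib.P243.Defs
import Vale.Agent.Lib.P243.Symm.Main

/-!
P243 (Bang's half-area cylinder covering problem): centrally symmetric bodies.

If a convex body `K = -K` in Euclidean 3-space is covered by finitely many cylinders `Bᵢ + ℝ uᵢ`, then the
directionwise relative area `∑ |Bᵢ| / |π_{uᵢ^⊥} K|` is at least `5/12`.
-/

namespace Vale.Agent.Results.P243.ZCentrallySymmetric

open MeasureTheory Set Vale.Agent.Lib.P243

theorem result (K : Set Space) (hconv : Convex ℝ K) (hcomp : IsCompact K)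
    (hint : (interior K).Nonempty) (hsymm : ∀ x ∈ K, -x ∈ K) (m : ℕ) (u : Fin m → Space)
    (hu : ∀ i, ‖u i‖ = 1) (B : ∀ i, Set (Plane (u i))) (hcov : K ⊆ ⋃ i, cylinder (u i) (B i)) :
    5 / 12 ≤ ∑ i, area (u i) (B i) / area (u i) (shadow K (u i)) :=
  Vale.Agent.Lib.P243.Symm.centrally_symmetric K hconv hcomp hint hsymm m u hu B hcov

end Vale.Agent.Results.P243.ZCentrallySymmetric
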